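import Vale.Agent.P207.N4.Dim
import Vale.Agent.P207.N7.H547.AffLemD
import Vale.Agent.P207.N4.H751.SB1
import Vale.Agent.P207.H310.EndQ
import Vale.Agent.P207.H558.Jet

/-!
# P207, line N7: the end of step 7 over the picture, from the 2-jet of the tensor at ONE frame

No rate is used. `D` is any zoom data (686, any order `k0`) whose tensor is the tensor of the picture.
-/

set_option linter.unusedSectionVars false
set_option maxSynthPendingDepth 3

open Set Filter Topology Metric
open scoped ContDiff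

noncomputable section

namespace Vale.Agent.P207.N4.Y.H310

open Vale.Agent.P207.N3 Vale.Agent.P207.H751 Vale.Agent.P207.H686 Vale.Agent.P207.H310
open Vale.Agent.P207.H558

variable [Dim]

/-- the rank one operator of a covector -/
def rk1 (α : E2 →L[ℝ] ℝ) : E2 →L[ℝ] E2 := α.smulRight ((InnerProductSpace.toDual ℝ E2).symm α)

theorem rk1_inner (α : E2 →L[ℝ] ℝ) (v w : E2) : inner ℝ (rk1 α v) w = α v * α w := by
  show inner ℝ (α v • (InnerProductSpace.toDual ℝ E2).symm α) w = _
  rw [real_inner_smul_left, InnerProductSpace.toDual_symm_apply]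

theorem fo_rk1 (α : E2 →L[ℝ] ℝ) : H751.fo (rk1 α) = sq α :=
  Fm.ext fun v w => by rw [H751.fo_apply, rk1_inner, sq_f]

variable {Γ X B : Type} [Group Γ] [MetricSpace X] [ProperSpace X] [MulAction Γ X]
  [IsIsometricSMul Γ X] [TopologicalSpace B] [CompactSpace B] [T2Space B] [MulAction Γ B]
  [ContinuousConstSMul Γ B]

variable {L : Leaf Γ X B} [MeasurableSpace B] [BorelSpace B] {V : Type}
  [NormedAddCommGroup V] [NormedSpace ℝ V] [FiniteDimensional ℝ V]

/-- **(PROD) from the 2-jet of the tensor `Na` at one frame** -/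
theorem prod_of_zd {k0 : ℕ} (P : Pic L V) (D : ZDk k0 E2 (Fm E2) X)
    (hact : ∀ {v A L' v'}, D.St v A L' v' → L' = act A)
    (hpr : ∀ x, ∀ q ∈ ball (0 : E2) 1, ∀ s, D.N x q (H751.fo s) = Pic.pr (P.Na x q) s)
    {x : X} {R s C : ℝ} (hs : 2 < s) (hR : 0 < R) (h : HasJet R s C (P.Na x)) : P.Prod := by
  have : Nontrivial E2 := by
    have : Nonempty (Fin Dim.m) := ⟨⟨0, by have := Dim.two_le; omega⟩⟩
    infer_instance
  intro hrough
  set bs := EuclideanSpace.basisFun (Fin Dim.m) ℝ with hbs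
  have h1 : ∀ q ∈ ball (0 : E2) 1, D.N x q = prL bs (P.Na x q) := by
    intro q hq
    refine ContinuousLinearMap.ext fun t => ?_
    obtain ⟨s, rfl⟩ := H751.fo_surj t
    rw [hpr x q hq s, H751.prL_fo]
    rfl
  have h2 : HasJet (min R 1) s (‖prL bs‖ * C) (D.N x) :=
    ((h.mono_R (min_le_left R 1)).clm (prL bs)).congr fun q hq =>
      h1 q (ball_subset_ball (min_le_right R 1) hq)
  obtain ⟨a, l, Q, -, -, -, hj⟩ := h2
  obtain ⟨w, α, hα, hw⟩ := exists_sq_of_jet (v₀ := x) D hact hs (lt_min hR one_pos) ⟨a, l, Q, hj⟩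
  have h3 : rk1 α ∈ P.Sm w := by
    have h4 : ContDiffOn ℝ ∞ (fun q => D.N w q (sq α)) (ball 0 1) := hw
    refine h4.congr fun q hq => ?_
    rw [← fo_rk1, hpr w q hq]
  have h5 := hrough w (rk1 α) h3 fun v v' => by
    rw [real_inner_comm (rk1 α v') v, rk1_inner, rk1_inner, mul_comm]
  have h6 : α = 0 := by
    refine ContinuousLinearMap.ext fun v => ?_
    have h7 := rk1_inner α v v
    rw [h5] at h7
    have h8 : α v * α v = 0 := by
      rw [← h7]
      exact inner_zero_left v
    exact mul_self_eq_zero.1 h8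
  rw [h6, norm_zero] at hα
  exact zero_ne_one hα

/-- **(PROD) from the 2-jet of the tensor `N0` at one frame** -/
theorem prod_of_zd0 {k0 : ℕ} (P : Pic L V) (D : ZDk k0 E2 (Fm E2) X)
    (hact : ∀ {v A L' v'}, D.St v A L' v' → L' = act A)
    (hpr : ∀ x, ∀ q ∈ ball (0 : E2) 1, ∀ s, D.N x q (H751.fo s) = Pic.pr (P.Na x q) s)
    {x : X} {R s C : ℝ} (hs : 2 < s) (hs3 : s ≤ 3) (hR : 0 < R) (h : HasJet R s C (P.N0 x)) :
    P.Prod := by
  obtain ⟨h1, h2, h3⟩ := P.link_one
  choose M hM using h2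
  set r := min R 1 with hr
  have hr0 : 0 < r := lt_min hR one_pos
  have hr2 : r ≤ 2 := (min_le_right R 1).trans (by norm_num)
  have hsub : ball (0 : E2) r ⊆ ball 0 2 := ball_subset_ball hr2
  have h4 : HasJet r s (max (max (M 0) (M 1)) (max (M 2) (M 3))) (P.Rl x) := by
    refine hasJet_of_contDiff (min_le_right R 1) hs3 (by linarith) hr0 ?_ fun k hk z hz => ?_
    · exact_mod_cast contDiffOn_infty.1 ((h1 x).mono hsub) 3
    · have h5 := hM k x z (hsub hz)
      refine h5.trans ?_
      have : k = 0 ∨ k = 1 ∨ k = 2 ∨ k = 3 := by omega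
      rcases this with rfl | rfl | rfl | rfl
      · exact (le_max_left _ _).trans (le_max_left _ _)
      · exact (le_max_right _ _).trans (le_max_left _ _)
      · exact (le_max_left _ _).trans (le_max_right _ _)
      · exact (le_max_right _ _).trans (le_max_right _ _)
  have h5 := ((h.mono_R (min_le_left R 1)).const_smul P.Bu.c₀).add h4
  have h6 := h5.congr (f' := P.Na x) fun q hq => h3 x q (hsub hq)
  exact prod_of_zd P D hact hpr hs hr0 h6

end Vale.Agent.P207.N4.Y.H310
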